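import Vale.Agent.P161.Final
import Vale.Agent.P161.Exists

namespace Vale.Agent.Results.P161.FactorOfIIDBelowKS

open Vale.Agent.P161 MeasureTheory

universe u

/-- For every `d ≥ 3`, every `d`-regular tree `G` and every `β ≥ 0` with
`tanh β < (d-1)^{-1/2}`, the free zero-field Ising measure `μ` on `G` (it exists and is unique)
is a factor of IID. -/
theorem result (d : ℕ) (hd : 3 ≤ d) (V : Type u) (G : SimpleGraph V) (hG : G.IsTree)
    (hreg : ∀ v, (G.neighborSet v).ncard = d) (β : ℝ) (hβ : 0 ≤ β)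
    (hθ : Real.tanh β < 1 / √((d : ℝ) - 1)) :
    ∃ μ : Measure (V → Bool), IsFreeIsing G (Real.tanh β) μ ∧
      (∀ μ' : Measure (V → Bool), IsFreeIsing G (Real.tanh β) μ' → μ' = μ) ∧
      IsFactorOfIID G μ := by
  have h0 : 0 ≤ Real.tanh β := by
    rw [Real.tanh_eq_sinh_div_cosh]
    exact div_nonneg (Real.sinh_nonneg_iff.2 hβ) (Real.cosh_pos β).le
  have h1 : Real.tanh β ≤ 1 := (Real.tanh_lt_one β).le
  obtain ⟨μ, _, hμ⟩ := exists_isFreeIsing hG (θ := Real.tanh β) (by rw [abs_of_nonneg h0]; exact h1)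
  exact ⟨μ, hμ, fun μ' h' => isFreeIsing_unique hG.connected h0 h1 h' hμ,
    isFactorOfIID_of_lt hd hG hreg h0 hθ hμ⟩

end Vale.Agent.Results.P161.FactorOfIIDBelowKS
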