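import Vale.Agent.P161C.Main

namespace Vale.Agent.Results.P161.FactorOfIIDIffKS

open Vale.Agent.P161 MeasureTheory

universe u

/-- For every `d ≥ 3`, every `d`-regular tree `G` and every `β ≥ 0`, the free zero-field Ising
measure `μ` on `G` (it exists and is unique) is a factor of IID if and only if
`tanh β ≤ (d-1)^{-1/2}`. -/
theorem result (d : ℕ) (hd : 3 ≤ d) (V : Type u) (G : SimpleGraph V) (hG : G.IsTree)
    (hreg : ∀ v, (G.neighborSet v).ncard = d) (β : ℝ) (hβ : 0 ≤ β) :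
    ∃ μ : Measure (V → Bool), IsFreeIsing G (Real.tanh β) μ ∧
      (∀ μ' : Measure (V → Bool), IsFreeIsing G (Real.tanh β) μ' → μ' = μ) ∧
      (IsFactorOfIID G μ ↔ Real.tanh β ≤ 1 / √((d : ℝ) - 1)) :=
  Vale.Agent.P161C.main d hd V G hG hreg β hβ

end Vale.Agent.Results.P161.FactorOfIIDIffKS
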